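import Vale.Agent.P245.Bdl.B2

/-!
P245: curvature of the levels of a uniformly log-concave measure: if the density is
`gwt t ρ1 = ρ1 · exp (- t |x|² / 2)`, `ρ1` log-concave, then `⟨φ, D²V_r φ⟩ ≥ t / (1 + t r) |φ|²`.
-/

open MeasureTheory Real Set Filter Topology
open scoped ENNReal ContDiff

namespace Vale.Agent.P245.H430

open LS E1

variable {n : ℕ} {ρ1 : (Fin n → ℝ) → ℝ} {t R : ℝ}

theorem lcd_gwt (h1 : LCd ρ1) (ht : 0 ≤ t) : LCd (gwt t ρ1) where
  meas := measurable_gwt h1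
  nonneg := fun x => gwt_nonneg h1 x
  lc := by
    intro x y s hs0 hs1
    refine le_trans ?_ (gwt_pl (κ := t) h1 x y hs0 hs1)
    have h2 : 0 ≤ gwt t ρ1 x ^ (1 - s) * gwt t ρ1 y ^ s :=
      mul_nonneg (rpow_nonneg (gwt_nonneg h1 x) _) (rpow_nonneg (gwt_nonneg h1 y) _)
    have h3 : 1 ≤ exp (s * (1 - s) * (t / 2 * ∑ i, (x i - y i) ^ 2)) := by
      have h4 : 0 ≤ 1 - s := by linarith
      have h5 : 0 ≤ ∑ i, (x i - y i) ^ 2 := Finset.sum_nonneg fun i _ => sq_nonneg _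
      exact Real.one_le_exp (by positivity)
    calc gwt t ρ1 x ^ (1 - s) * gwt t ρ1 y ^ s
        = gwt t ρ1 x ^ (1 - s) * gwt t ρ1 y ^ s * 1 := (mul_one _).symm
      _ ≤ _ := mul_le_mul_of_nonneg_left h3 h2

theorem post_gwt (p : ℝ × (Fin n → ℝ)) (Z : ℝ) :
    (fun x => ENNReal.ofReal (gwt p.1
      (fun x => gwt t ρ1 x * (exp (∑ i, p.2 i * x i) * Z)) x)) =
    fun x => ENNReal.ofReal (gwt (p.1 + t)
      (fun x => ρ1 x * (exp (∑ i, p.2 i * x i) * Z)) x) := by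
  funext x
  congr 1
  unfold gwt
  have e : exp (-((p.1 + t) / 2 * ∑ i, x i ^ 2)) =
      exp (-(t / 2 * ∑ i, x i ^ 2)) * exp (-(p.1 / 2 * ∑ i, x i ^ 2)) := by
    rw [← exp_add]; congr 1; ring
  rw [e]; ring

/-- sharp Poincaré inequality for posteriors of a `t`-uniformly log-concave measure -/
theorem poin_sharp_t (h1 : LCd ρ1) (ht : 0 ≤ t) [IsProbabilityMeasure (mu (gwt t ρ1))]
    (h : CSupp (mu (gwt t ρ1)) R) {p : ℝ × (Fin n → ℝ)} (hp : 0 < p.1) :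
    Poin (post (gwt t ρ1) p) (1 / (p.1 + t)) := by
  have hρ : LCd (gwt t ρ1) := lcd_gwt h1 ht
  intro f hf
  obtain ⟨g, hg, ⟨R', hR'⟩, hgf⟩ := exists_cutoff hf R
  have ip := isProb_post hρ h p
  have hZ := Zo_pos h p
  have hg1 : ContDiff ℝ 1 g := hg.of_le (by norm_num)
  have hp' : 0 < p.1 + t := by linarith
  have key := UpA.poincare_sharp hp' (h1.mul_expL p.2 (inv_pos.2 hZ)) (ν := post (gwt t ρ1) p)
    (by
      show volume.withDensity _ = volume.withDensity _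
      rw [post_gwt p ((Zo (mu (gwt t ρ1)) p)⁻¹)]) hg hR'
  have hpi : ∀ i ∈ (Finset.univ : Finset (Fin n)), Integrable (fun x => pd g i x ^ 2)
      (post (gwt t ρ1) p) := by
    intro i _
    obtain ⟨P, hP⟩ := bdd_of_const_outside (continuous_pd hg1 i) (pd_const_outside hR' i)
    exact integrable_of_bdd _ ((continuous_pd hg1 i).measurable.pow_const 2) (K := P ^ 2) fun x => by
        rw [abs_of_nonneg (sq_nonneg _), ← sq_abs]; exact pow_le_pow_left₀ (abs_nonneg _) (hP x) 2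
  rw [← integral_finsetSum _ hpi, integral_post hρ h, integral_post hρ h, integral_post hρ h,
    Vf_eq h (Adm.of_continuous h hg.continuous), sub_self, zero_pow two_ne_zero, add_zero] at key
  have hae : ∀ᵐ x ∂(mu (gwt t ρ1)), g x = f x ∧ ∀ i, pd g i x = pd f i x := by
    filter_upwards [h.supp] with x hx using hgf x hx
  rw [Vf_congr_ae (g' := f) (hae.mono fun x hx => hx.1),
    Mf_congr_ae (g' := fun x => ∑ i, pd f i x ^ 2) (hae.mono fun x hx => by simp only [hx.2]),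
    Vf_eq_post hρ h, ← integral_post hρ h] at key
  exact key

theorem Pq_ge (h1 : LCd ρ1) (ht : 0 ≤ t) [IsProbabilityMeasure (mu (gwt t ρ1))]
    (h : CSupp (mu (gwt t ρ1)) R) {σ : ℝ} (hσ : 0 < σ) (y u : Fin n → ℝ) :
    t / (1 + t * σ) * ∑ i, u i ^ 2 ≤ Pq (mu (gwt t ρ1)) σ y u u := by
  have hρ : LCd (gwt t ρ1) := lcd_gwt h1 ht
  rw [Pq_self h]
  have hp : (0:ℝ) < ((1 / σ, (1 / σ) • y) : ℝ × (Fin n → ℝ)).1 := by
    show 0 < 1 / σ
    positivity
  have := isProb_post hρ h (1 / σ, (1 / σ) • y)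
  have h2 := Vf_lin_le hρ h (covLe_of_poin (poin_sharp_t h1 ht h hp)) u
  have h2' : Vf (mu (gwt t ρ1)) (fun x => ∑ i, u i * x i) (1 / σ, (1 / σ) • y) ≤
      1 / (1 / σ + t) * ∑ i, u i ^ 2 := h2
  have h3 := mul_le_mul_of_nonneg_left h2' (by positivity : 0 ≤ 1 / σ ^ 2)
  have h4 : 0 < 1 + t * σ := by positivity
  have e : 1 / σ * (∑ i, u i ^ 2) - 1 / σ ^ 2 * (1 / (1 / σ + t) * ∑ i, u i ^ 2) =
      t / (1 + t * σ) * ∑ i, u i ^ 2 := by
    have h5 : 1 / σ + t = (1 + t * σ) / σ := by field_simp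
    rw [h5]
    field_simp
    ring
  linarith

/-- the curvature of the level `r` -/
theorem BI_ge (h1 : LCd ρ1) (ht : 0 ≤ t) (hprob : IsProbabilityMeasure (mu (gwt t ρ1)))
    (h : CSupp (mu (gwt t ρ1)) R) {r : ℝ} (hr : 0 < r) {N : (Fin n → ℝ) → ℝ} (hN : Pos N)
    {φ : Fin n → (Fin n → ℝ) → ℝ} (hφ : ∀ i, SB (φ i)) :
    t / (1 + t * r) * IP (mu (gwt t ρ1)) r N φ φ ≤ BI (mu (gwt t ρ1)) r N φ φ := by
  rw [BI_eq h hr, IP]
  have hS : SB fun y => ∑ i, φ i y * φ i y := SB.sum _ fun i _ => (hφ i).mul (hφ i)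
  have hP := Pq_sb h hr hφ hφ
  have e : EY (mu (gwt t ρ1)) r (fun y => N y * Pq (mu (gwt t ρ1)) r y (fun i => φ i y)
        (fun i => φ i y))
      - t / (1 + t * r) * EY (mu (gwt t ρ1)) r (fun y => N y * ∑ i, φ i y * φ i y)
      = EY (mu (gwt t ρ1)) r (fun y => N y * Pq (mu (gwt t ρ1)) r y (fun i => φ i y)
        (fun i => φ i y) + (-(t / (1 + t * r))) * (N y * ∑ i, φ i y * φ i y)) := by
    rw [EY_add _ _ (hN.sb.mul hP) ((hN.sb.mul hS).const_mul _), EY_const_mul]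
    ring
  have h0 : 0 ≤ EY (mu (gwt t ρ1)) r (fun y => N y * Pq (mu (gwt t ρ1)) r y (fun i => φ i y)
        (fun i => φ i y) + (-(t / (1 + t * r))) * (N y * ∑ i, φ i y * φ i y)) := by
    refine EY_nonneg _ _ fun y => ?_
    have h2 := Pq_ge h1 ht h hr y (fun i => φ i y)
    have h3 := mul_le_mul_of_nonneg_left h2 (hN.pos y).le
    have e2 : ∑ i, φ i y * φ i y = ∑ i, (φ i y) ^ 2 :=
      Finset.sum_congr rfl fun i _ => by ring
    rw [e2]
    nlinarith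
  linarith

end Vale.Agent.P245.H430
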