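import Vale.Agent.P245.H430.StepT

/-!
P245: `C_LS ≤ C (1 + t^(-1/2))` for `t`-uniformly log-concave compactly supported measures with
`ExpM 3` (linearly subgaussian), in all dimensions.
-/

open MeasureTheory Real Set Filter Topology
open scoped ENNReal ContDiff

namespace Vale.Agent.P245.H430

open LS E1

variable {n : ℕ}

/-- a contradiction at a large critical level -/
theorem coreT {L : ℝ} (hL : L = 6400000000 * (2 * 700 + 1) + 1)
    {ρ1 : (Fin n → ℝ) → ℝ} {R t : ℝ} (hn : 1 ≤ n) (hlc1 : LCd ρ1) (ht : 0 < t)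
    (hprob : IsProbabilityMeasure (mu (gwt t ρ1))) (hR : CSupp (mu (gwt t ρ1)) R)
    (hexp : ExpM (mu (gwt t ρ1)) 3) {κ0 : ℝ}
    (hκa : 500 * L ≤ κ0) (hκb : 500 * L ≤ κ0 * √t)
    (h1 : DB (mu (gwt t ρ1)) κ0 (log 2 / 2))
    (h2 : ¬ DB (mu (gwt t ρ1)) (99 / 100 * κ0) (log 2 / 2)) : False := by
  have hρ : LCd (gwt t ρ1) := lcd_gwt hlc1 ht.le
  obtain ⟨ρ, hρe⟩ : ∃ ρ, ρ = gwt t ρ1 := ⟨_, rfl⟩
  have hstepT := fun N δ κ σ α D => stepT (n := n)
    (boot_of n (thK n) (thR' n) (thT' n) (thCo n) (thRv n)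
      (thG0' n) (thU' n) (thDn' n) (thP n) (thPathA' n)) (thPathA' n) (thR' n) (thCo n) (thU' n)
    (thRv n) (Λ := 700) (L := L) (by norm_num) hL hlc1 ht.le hprob hR hexp N δ κ σ α D
  rw [← hρe] at hρ hprob hR hexp h1 h2 hstepT
  have hl2 : 0 < log 2 := Real.log_pos (by norm_num)
  have hn1 : (1 : ℝ) ≤ n := by exact_mod_cast hn
  have hlog : 0 ≤ log (n : ℝ) := Real.log_nonneg hn1
  have hL1 : 1 ≤ L := by rw [hL]; norm_num
  have hκ500 : 500 ≤ κ0 := by linarith only [hL1, hκa]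
  have hκp : 0 < κ0 := by linarith only [hκ500]
  obtain ⟨C2, hC2⟩ : ∃ C2, C2 = κ0 / (500 * (1 + log n)) := ⟨_, rfl⟩
  have hden : 0 < 500 * (1 + log (n : ℝ)) := by linarith only [hlog]
  have hC2p : 0 < C2 := by rw [hC2]; positivity
  have hC2k : C2 ≤ κ0 / 500 := by
    rw [hC2]
    apply div_le_div_of_nonneg_left hκp.le (by norm_num)
    linarith only [hlog]
  obtain ⟨δ, hδ⟩ : ∃ δ, δ = κ0 / 4000 := ⟨_, rfl⟩
  have hδ0 : 0 < δ := by rw [hδ]; (clear * - hκ500; positivity)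
  have hne : Nonempty (GF (mu ρ) δ) :=
    ⟨⟨(2 * δ, fun _ => 1), ⟨le_rfl, by linarith only [hδ0]⟩, g_Pos_one, g_EY_one _ _⟩⟩
  -- tight inequality with constant `46 κ0`
  have h46 : DB (mu ρ) (46 * κ0) 0 := by
    have a1 := (thH2 n (mu ρ) R κ0 (log 2 / 2) hR hκp.le (by positivity)).1 h1
    have a2 := thH4 n (mu ρ) κ0 hκp.le a1
    refine (thH2 n (mu ρ) R (46 * κ0) 0 hR (by positivity) le_rfl).2 ?_
    have e : 4 * (46 * κ0) = 184 * κ0 := by ring
    rw [e]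
    exact a2
  have hlev : ∀ f : GF (mu ρ) δ, 0 < f.1.1 ∧ f.1.1 / 2 ≤ 3 / 2 * δ := by
    intro f
    have a := f.2.1.1
    have b := f.2.1.2
    constructor
    · linarith only [hδ0, a]
    · linarith only [b]
  have hLv := thLv n
  have hup : ∀ κ D, 0 ≤ κ → DB (mu ρ) κ D → ∀ f : GF (mu ρ) δ,
      HE (mu ρ) f.1.1 f.1.2 ≤ (κ + 3 / 2 * δ) * FI (mu ρ) f.1.1 f.1.2 + D := by
    intro κ D hκ hDB f
    have a := (hLv ρ R hρ hprob hR f.1.1 κ D (hlev f).1 hκ).1 hDB f.1.2 f.2.2.1 f.2.2.2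
    have b := mul_le_mul_of_nonneg_right (hlev f).2 (g_FI_nonneg (mu ρ) f.1.1 f.2.2.1)
    rw [add_mul] at a ⊢
    linarith only [b, a]
  have hH1 := thH1 n ρ R hn hρ hprob hR hexp
  have hb1 := hup 4 (6 * n) (by norm_num) hH1
  have hb2 := hup (46 * κ0) 0 (by positivity) h46
  have hDBS : ∀ k, 4 + 3 / 2 * δ ≤ k → DBS (mu ρ) (2 * δ) δ k
      (iterD (fun f : GF (mu ρ) δ => HE (mu ρ) f.1.1 f.1.2)
        (fun f => FI (mu ρ) f.1.1 f.1.2) k) := by
    intro k hk r hr N hN hE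
    have hr' : r ∈ Icc (2 * δ) (3 * δ) := ⟨hr.1, by linarith only [hr.2]⟩
    have := g_le (H := fun f : GF (mu ρ) δ => HE (mu ρ) f.1.1 f.1.2)
      (I := fun f => FI (mu ρ) f.1.1 f.1.2) (fun f => g_FI_nonneg _ _ f.2.2.1) hb1 hk
      ⟨(r, N), hr', hN, hE⟩
    simp only at this
    linarith only [this]
  have hk1 : 4 + 3 / 2 * δ ≤ κ0 / 2 := by rw [hδ]; linarith only [hκ500]
  -- the numerical contradiction
  have hnum : ∀ k, κ0 / 2 ≤ k → 21 * L < k ^ 2 * (t / (1 + t * (3 * δ))) := by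
    intro k hk
    have hd : 0 < 1 + t * (3 * δ) := by positivity
    rw [← mul_div_assoc, lt_div_iff₀ hd]
    have e1 : κ0 ^ 2 * t = (κ0 * √t) ^ 2 := by
      rw [mul_pow, Real.sq_sqrt ht.le]
    have b1 : (500 * L) ^ 2 ≤ κ0 ^ 2 * t := by
      rw [e1]
      exact pow_le_pow_left₀ (by positivity) hκb 2
    have b2 : 500 * L * (κ0 * t) ≤ κ0 ^ 2 * t := by
      have : κ0 ^ 2 * t = κ0 * (κ0 * t) := by ring
      rw [this]
      exact mul_le_mul_of_nonneg_right hκa (by positivity)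
    have b3 : (κ0 / 2) ^ 2 * t ≤ k ^ 2 * t :=
      mul_le_mul_of_nonneg_right (pow_le_pow_left₀ (by positivity) hk 2) ht.le
    have b4 : 21 * L * (1 + t * (3 * δ)) = 21 * L + 63 / 4000 * (L * (κ0 * t)) := by
      rw [hδ]; ring
    have b5 : 0 ≤ L * (κ0 * t) := by positivity
    have b6 : L ≤ L ^ 2 := by nlinarith only [hL1]
    rw [b4]
    nlinarith only [b1, b2, b3, b5, b6, hL1]
  have hG : GHyp (fun f : GF (mu ρ) δ => HE (mu ρ) f.1.1 f.1.2)
      (fun f => FI (mu ρ) f.1.1 f.1.2) (6 * n) (4 + 3 / 2 * δ) κ0 C2 (1 / 10 ^ 6) := by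
    refine ⟨fun f => g_FI_nonneg _ _ f.2.2.1, hb1, hk1, ?_, hκp, hC2p, by norm_num, ?_, ?_⟩
    · intro f
      have a := hb2 f
      have b : (46 * κ0 + 3 / 2 * δ) * FI (mu ρ) f.1.1 f.1.2 ≤
          47 * κ0 * FI (mu ρ) f.1.1 f.1.2 :=
        mul_le_mul_of_nonneg_right (by rw [hδ]; linarith only [hκ500]) (g_FI_nonneg _ _ f.2.2.1)
      linarith only [a, b]
    · intro k hka hkb
      by_contra hcon
      push Not at hcon
      apply h2
      have a := hDBS k (by linarith only [hκ500, hδ, hka]) (2 * δ) ⟨le_rfl, by linarith only [hδ0]⟩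
      have b := (hLv ρ R hρ hprob hR (2 * δ) k _ (by linarith only [hδ0]) (by linarith only [hκ500, hka])).2 a
      exact g_DB_mono b (by rw [hδ]; linarith only [hδ, hδ0, hkb]) hcon
    · intro k f α hka hkb hα0 hα hfa hfb hfc
      exfalso
      have hk2 : κ0 / 2 ≤ k := by linarith only [hka, hC2p]
      have a := hstepT f.1.2 δ k f.1.1 α _ (by linarith only [hκa, hk2])
        (by rw [hδ]; linarith only [hkb]) (by rw [hδ]; linarith only [hk2])
        (hDBS k (by linarith only [hκ500, hδ, hk2])) f.2.1 f.2.2.1 f.2.2.2 hα0 hα hfa hfb hfc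
      exact absurd (hnum k hk2) (not_lt.2 a)
  have hX : 500 * (1 + log n) ≤ κ0 / C2 := by
    rw [hC2, div_div_eq_mul_div, mul_comm κ0, mul_div_assoc, div_self hκp.ne', mul_one]
  obtain ⟨m, hm, hm'⟩ := g_num hn hX
  have hfin := g_abstract hG m (by
    have : ((m : ℝ) + 1) * C2 ≤ 12 / 25 * (κ0 / C2) * C2 :=
      mul_le_mul_of_nonneg_right hm hC2p.le
    have e : 12 / 25 * (κ0 / C2) * C2 = 12 / 25 * κ0 := by (clear * - hC2p hκ500; field_simp)
    linarith only [this, e])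
  have e : C2 * (log 2 / (188 * κ0)) = log 2 / (188 * (κ0 / C2)) := by
    (clear * - hκ500 hC2p; field_simp)
  rw [e] at hfin
  linarith only [hm', hfin]

/-- the inequality for compactly supported measures -/
theorem mainT : ∃ C : ℝ, 0 < C ∧ ∀ (n : ℕ) (ρ1 : (Fin n → ℝ) → ℝ) (R t : ℝ), 1 ≤ n → LCd ρ1 →
    0 < t → IsProbabilityMeasure (mu (gwt t ρ1)) → CSupp (mu (gwt t ρ1)) R →
    ExpM (mu (gwt t ρ1)) 3 → DL (mu (gwt t ρ1)) (C * (1 + 1 / √t)) 0 := by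
  obtain ⟨L, hL⟩ : ∃ L : ℝ, L = 6400000000 * (2 * 700 + 1) + 1 := ⟨_, rfl⟩
  have hL1 : 1 ≤ L := by rw [hL]; norm_num
  refine ⟨184 * (500 * L), by positivity, ?_⟩
  intro n ρ1 R t hn hlc1 ht hprob hR hexp
  have hρ : LCd (gwt t ρ1) := lcd_gwt hlc1 ht.le
  have hst : 0 < √t := Real.sqrt_pos.2 ht
  have hl2 : 0 < log 2 := Real.log_pos (by norm_num)
  obtain ⟨K1, hK1⟩ : ∃ K1, K1 = 500 * L * (1 + 1 / √t) := ⟨_, rfl⟩
  have hK1a : 500 * L ≤ K1 := by
    rw [hK1]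
    have : 0 ≤ 500 * L * (1 / √t) := by positivity
    linarith only [this]
  have hK1b : 500 * L ≤ K1 * √t := by
    have e : K1 * √t = 500 * L * √t + 500 * L := by
      rw [hK1]; field_simp
    rw [e]
    have : 0 ≤ 500 * L * √t := by positivity
    linarith only [this]
  have hK1p : 0 < K1 := by linarith only [hL1, hK1a]
  have key : DB (mu (gwt t ρ1)) K1 (log 2 / 2) := by
    by_contra hcon
    obtain ⟨κ, hκ, h3⟩ := thH3 n (gwt t ρ1) R hn hρ hprob hR hexp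
    have hex : ∃ i : ℕ, DB (mu (gwt t ρ1)) ((100 / 99) ^ i * K1) (log 2 / 2) := by
      obtain ⟨i, hi⟩ := pow_unbounded_of_one_lt (κ / K1) (by norm_num : (1 : ℝ) < 100 / 99)
      refine ⟨i, g_DB_mono h3 ?_ (by positivity)⟩
      rw [div_lt_iff₀ hK1p] at hi
      exact hi.le
    classical
    obtain ⟨i, hi⟩ : ∃ i, i = Nat.find hex := ⟨_, rfl⟩
    have hi1 : DB (mu (gwt t ρ1)) ((100 / 99) ^ i * K1) (log 2 / 2) := by
      rw [hi]; exact Nat.find_spec hex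
    have hi2 : ∀ j < i, ¬ DB (mu (gwt t ρ1)) ((100 / 99) ^ j * K1) (log 2 / 2) := fun j hj =>
      Nat.find_min hex (by rw [← hi]; exact hj)
    have hi0 : i ≠ 0 := by
      rintro rfl
      apply hcon
      rwa [pow_zero, one_mul] at hi1
    obtain ⟨l, rfl⟩ := Nat.exists_eq_succ_of_ne_zero hi0
    have hl := hi2 l (Nat.lt_succ_self l)
    have hge : K1 ≤ (100 / 99) ^ (l + 1) * K1 := by
      have : (1 : ℝ) ≤ (100 / 99) ^ (l + 1) := one_le_pow₀ (by norm_num)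
      have := mul_le_mul_of_nonneg_right this hK1p.le
      linarith only [this]
    refine coreT hL hn hlc1 ht hprob hR hexp (hK1a.trans hge)
      (hK1b.trans (mul_le_mul_of_nonneg_right hge hst.le)) hi1 ?_
    have e : 99 / 100 * ((100 / 99) ^ (l + 1) * K1) = (100 / 99) ^ l * K1 := by
      rw [pow_succ]; ring
    rw [e]
    exact hl
  have a1 := (thH2 n (mu (gwt t ρ1)) R K1 (log 2 / 2) hR hK1p.le (by positivity)).1 key
  have a2 := thH4 n (mu (gwt t ρ1)) K1 hK1p.le a1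
  have e : 184 * (500 * L) * (1 + 1 / √t) = 184 * K1 := by rw [hK1]; ring
  rw [e]
  exact a2

/-- the form with a density `ρ`, `exp (t |x|² / 2) ρ` log-concave -/
theorem mainT' : ∃ C : ℝ, 0 < C ∧ ∀ (n : ℕ) (ρ : (Fin n → ℝ) → ℝ) (R t : ℝ), 1 ≤ n → 0 < t →
    LCd (fun x => exp (t / 2 * ∑ i, x i ^ 2) * ρ x) → IsProbabilityMeasure (mu ρ) →
    CSupp (mu ρ) R → ExpM (mu ρ) 3 → DL (mu ρ) (C * (1 + 1 / √t)) 0 := by
  obtain ⟨C, hC, h⟩ := mainT
  refine ⟨C, hC, fun n ρ R t hn ht hlc hprob hcs hexp => ?_⟩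
  have e : gwt t (fun x => exp (t / 2 * ∑ i, x i ^ 2) * ρ x) = ρ := by
    funext x
    unfold gwt
    have : exp (t / 2 * ∑ i, x i ^ 2) * exp (-(t / 2 * ∑ i, x i ^ 2)) = 1 := by
      rw [← exp_add]; simp
    calc exp (t / 2 * ∑ i, x i ^ 2) * ρ x * exp (-(t / 2 * ∑ i, x i ^ 2))
        = (exp (t / 2 * ∑ i, x i ^ 2) * exp (-(t / 2 * ∑ i, x i ^ 2))) * ρ x := by ring
      _ = ρ x := by rw [this, one_mul]
  have h1 := h n (fun x => exp (t / 2 * ∑ i, x i ^ 2) * ρ x) R t hn hlc ht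
  rw [e] at h1
  exact h1 hprob hcs hexp

end Vale.Agent.P245.H430
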