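import Vale.Agent.P245.H430.CoreT
import Vale.Agent.P245.N.Fin

/-!
P245: the improved Lichnerowicz estimate for the log-Sobolev constant on `EuclideanSpace`.
-/

open MeasureTheory Real Set Filter Topology
open scoped ENNReal ContDiff

namespace Vale.Agent.P245.H430

open LS E1 N

variable {n : ℕ}

/-- all `t`-uniformly log-concave measures -/
theorem dl_t_mu : ∃ C : ℝ, 0 < C ∧ ∀ (n : ℕ) (ρ : (Fin n → ℝ) → ℝ) (t : ℝ), 1 ≤ n → 0 < t →
    LCd (fun x => exp (t / 2 * ∑ i, x i ^ 2) * ρ x) → LCd ρ → IsProbabilityMeasure (mu ρ) →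
    (∀ h : Fin n → ℝ, ∫⁻ x, ENNReal.ofReal (exp (∑ i, h i * x i)) ∂(mu ρ)
        ≤ 2 * ENNReal.ofReal (exp ((∑ i, h i ^ 2) / 4))) →
    DL (mu ρ) (C * (1 + 1 / √t)) 0 := by
  obtain ⟨C, hC, h⟩ := mainT'
  refine ⟨C, hC, fun n ρ t hn ht hlc hρ hprob hexp => ?_⟩
  have hev : ∀ᶠ k : ℕ in atTop, 2 / 3 < (mu ρ).real (cube n k) :=
    (tendsto_real_cube (ρ := ρ)).eventually (lt_mem_nhds (by norm_num))
  apply dl_of_trunc_D hρ
  filter_upwards [hev] with j hj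
  have hk0 : 0 < (mu ρ).real (cube n (j : ℝ)) := by linarith only [hj]
  refine h n (trunc ρ j ((mu ρ).real (cube n j))) j t hn ht ?_ (isProb_muT hρ hk0)
    (csupp_muT hρ (Nat.cast_nonneg j) hk0) (expM_muT hρ (Nat.cast_nonneg j) hj.le hexp)
  have e : (fun x => exp (t / 2 * ∑ i, x i ^ 2) * trunc ρ j ((mu ρ).real (cube n j)) x) =
      trunc (fun x => exp (t / 2 * ∑ i, x i ^ 2) * ρ x) j ((mu ρ).real (cube n j)) := by
    funext x
    unfold trunc
    by_cases hx : x ∈ cube n (j : ℝ)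
    · rw [indicator_of_mem hx, indicator_of_mem hx]; ring
    · rw [indicator_of_notMem hx, indicator_of_notMem hx, mul_zero]
  rw [e]
  exact trunc_LCd hlc hk0

/-- the normalised image of a uniformly log-concave measure -/
theorem exists_LCd_t {μ : Measure (EuclideanSpace ℝ (Fin n))} [IsProbabilityMeasure μ]
    {κ a : ℝ} (ha : 0 < a) {ρ : EuclideanSpace ℝ (Fin n) → ℝ} (hm : Measurable ρ)
    (h0 : ∀ x, 0 ≤ ρ x)
    (hc : ConcaveOn ℝ {x | 0 < ρ x} (fun x => Real.log (ρ x) + κ / 2 * ‖x‖ ^ 2))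
    (hμ : μ = (volume : Measure (EuclideanSpace ℝ (Fin n))).withDensity
      (fun x => ENNReal.ofReal (ρ x))) :
    ∃ ρ' : (Fin n → ℝ) → ℝ, LCd (fun x => exp (κ * a ^ 2 / 2 * ∑ i, x i ^ 2) * ρ' x) ∧
      IsProbabilityMeasure (mu ρ') ∧ μ.map (scE n a ha.ne') = mu ρ' := by
  set e := (MeasurableEquiv.toLp 2 (Fin n → ℝ)).symm with he
  have hmp : MeasurePreserving e volume volume :=
    EuclideanSpace.volume_preserving_symm_measurableEquiv_toLp (Fin n)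
  set ρ0 : (Fin n → ℝ) → ℝ := fun y => ρ (WithLp.toLp 2 y) with hρ0
  have hρ0m : Measurable ρ0 := hm.comp (WithLp.measurable_toLp 2 _)
  have hmap : μ.map e = mu ρ0 := by
    ext A hA
    rw [Measure.map_apply e.measurable hA, hμ, mu, withDensity_apply _ (e.measurable hA),
      withDensity_apply _ hA]
    have := hmp.setLIntegral_comp_preimage hA (f := fun y => ENNReal.ofReal (ρ0 y))
      hρ0m.ennreal_ofReal
    rw [← this]
    rfl
  have hmap2 : μ.map (scE n a ha.ne') = mu (fun y => a ^ n * ρ0 (a • y)) := by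
    rw [← map_smul_mu hρ0m ha, ← hmap, Measure.map_map (measurable_const_smul _) e.measurable]
    rfl
  have hprob : IsProbabilityMeasure (μ.map (scE n a ha.ne')) :=
    Measure.isProbabilityMeasure_map (scE n a ha.ne').measurable.aemeasurable
  refine ⟨_, ?_, hmap2 ▸ hprob, hmap2⟩
  -- the strongly log-concave density
  set ρ1 : EuclideanSpace ℝ (Fin n) → ℝ := fun x => exp (κ / 2 * ‖x‖ ^ 2) * ρ x with hρ1
  have hset : {x | 0 < ρ1 x} = {x | 0 < ρ x} := by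
    ext x
    simp only [mem_ofPred_eq, hρ1]
    exact mul_pos_iff_of_pos_left (exp_pos _)
  have hc1 : ConcaveOn ℝ {x | 0 < ρ1 x} (fun x => Real.log (ρ1 x)) := by
    rw [hset]
    refine hc.congr fun x hx => ?_
    have hx' : 0 < ρ x := hx
    show Real.log (ρ x) + κ / 2 * ‖x‖ ^ 2 = Real.log (exp (κ / 2 * ‖x‖ ^ 2) * ρ x)
    rw [Real.log_mul (exp_pos _).ne' hx'.ne', Real.log_exp]; ring
  have hm1 : Measurable (fun y : Fin n → ℝ => ρ1 (WithLp.toLp 2 y)) := by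
    have : Measurable ρ1 := by
      rw [hρ1]
      exact (by fun_prop : Measurable fun x : EuclideanSpace ℝ (Fin n) =>
        exp (κ / 2 * ‖x‖ ^ 2)).mul hm
    exact this.comp (WithLp.measurable_toLp 2 _)
  have h2 := LCd_scale hm1 (fun x => mul_nonneg (exp_pos _).le (h0 _))
    (LC_of_concaveOn (fun x => mul_nonneg (exp_pos _).le (h0 _)) hc1) ha
  have e3 : (fun x : Fin n → ℝ => exp (κ * a ^ 2 / 2 * ∑ i, x i ^ 2) *
      (a ^ n * ρ0 (a • x))) = fun y => a ^ n * ρ1 (WithLp.toLp 2 (a • y)) := by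
    funext x
    have e4 : ‖(WithLp.toLp 2 (a • x) : EuclideanSpace ℝ (Fin n))‖ ^ 2 =
        a ^ 2 * ∑ i, x i ^ 2 := by
      rw [EuclideanSpace.real_norm_sq_eq, Finset.mul_sum]
      refine Finset.sum_congr rfl fun i _ => ?_
      show (a * x i) ^ 2 = a ^ 2 * x i ^ 2
      ring
    simp only [hρ1, hρ0, e4]
    have e5 : κ * a ^ 2 / 2 * ∑ i, x i ^ 2 = κ / 2 * (a ^ 2 * ∑ i, x i ^ 2) := by ring
    rw [e5]; ring
  rw [e3]
  exact h2

/-- **Improved Lichnerowicz estimate for the log-Sobolev constant.** -/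
theorem final : ∃ C : ℝ, 0 < C ∧ ∀ (n : ℕ), 1 ≤ n →
    ∀ (μ : Measure (EuclideanSpace ℝ (Fin n))) [IsProbabilityMeasure μ]
      (ρ : EuclideanSpace ℝ (Fin n) → ℝ) (κ : ℝ), 0 < κ → Measurable ρ → (∀ x, 0 ≤ ρ x) →
      ConcaveOn ℝ {x | 0 < ρ x} (fun x => Real.log (ρ x) + κ / 2 * ‖x‖ ^ 2) →
      μ = (volume : Measure (EuclideanSpace ℝ (Fin n))).withDensity
        (fun x => ENNReal.ofReal (ρ x)) →
      ∀ a : ℝ, 0 < a → LinearlySubgaussian μ a →
      ∀ f : EuclideanSpace ℝ (Fin n) → ℝ, ContDiff ℝ ∞ f → HasCompactSupport f →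
        Entropy μ (fun x => f x ^ 2) ≤
          C * (a ^ 2 + a / √κ) * ∫ x, ‖gradient f x‖ ^ 2 ∂μ := by
  obtain ⟨C, hC, h⟩ := dl_t_mu
  refine ⟨C, hC, fun n hn μ _ ρ κ hκ hm h0 hc hμ a ha hsub f hf hs => ?_⟩
  obtain ⟨ρ', hlc, hprob, hmap⟩ := exists_LCd_t ha hm h0 hc hμ
  have ht : 0 < κ * a ^ 2 := by positivity
  have hρ' : LCd ρ' := by
    have e : gwt (κ * a ^ 2) (fun x => exp (κ * a ^ 2 / 2 * ∑ i, x i ^ 2) * ρ' x) = ρ' := by
      funext x
      unfold gwt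
      have : exp (κ * a ^ 2 / 2 * ∑ i, x i ^ 2) * exp (-(κ * a ^ 2 / 2 * ∑ i, x i ^ 2)) = 1 := by
        rw [← exp_add]; simp
      calc exp (κ * a ^ 2 / 2 * ∑ i, x i ^ 2) * ρ' x * exp (-(κ * a ^ 2 / 2 * ∑ i, x i ^ 2))
          = (exp (κ * a ^ 2 / 2 * ∑ i, x i ^ 2) * exp (-(κ * a ^ 2 / 2 * ∑ i, x i ^ 2))) *
            ρ' x := by ring
        _ = ρ' x := by rw [this, one_mul]
    have h1 := lcd_gwt (t := κ * a ^ 2) hlc ht.le
    rwa [e] at h1
  have hexp : ∀ h : Fin n → ℝ, ∫⁻ x, ENNReal.ofReal (Real.exp (∑ i, h i * x i)) ∂(mu ρ')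
      ≤ 2 * ENNReal.ofReal (Real.exp ((∑ i, h i ^ 2) / 4)) := by
    intro h
    rw [← hmap]
    exact exp_moment_scE ha hsub h
  have h3 := dl_transfer ha hmap (h n ρ' (κ * a ^ 2) hn ht hlc hρ' hprob hexp) hf hs
  rw [zero_mul, add_zero] at h3
  refine h3.trans (le_of_eq ?_)
  have e : √(κ * a ^ 2) = √κ * a := by
    rw [Real.sqrt_mul hκ.le, Real.sqrt_sq ha.le]
  have hsκ : 0 < √κ := Real.sqrt_pos.2 hκ
  rw [e]
  have e2 : C * (1 + 1 / (√κ * a)) * a ^ 2 = C * (a ^ 2 + a / √κ) := by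
    field_simp
  rw [e2]

end Vale.Agent.P245.H430
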