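import Vale.Agent.P245.H430.BIt

/-!
P245: a near-maximiser of a uniformly log-concave measure is impossible at large level
(improved Lichnerowicz estimate for the log-Sobolev constant).
-/

open MeasureTheory Real Set Filter Topology
open scoped ENNReal ContDiff

namespace Vale.Agent.P245.H430

open LS E1

variable {n : ℕ}

/-- `thPath` with the curvature term kept -/
theorem pathB (n : ℕ) (hPA : StPathA n) (hR : StR n) (hCo : StCo n) (hU : StU n)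
    (ρ0 : (Fin n → ℝ) → ℝ) (R : ℝ) (hρ : LCd ρ0) (hprob : IsProbabilityMeasure (mu ρ0))
    (hcs : CSupp (mu ρ0) R)
    (N : (Fin n → ℝ) → ℝ) (δ κ σ α x X D : ℝ) (hδ : 0 < δ) (hδκ : 2000 * δ ≤ κ)
    (hDBS : DBS (mu ρ0) (2 * δ) δ κ D) (hσ : σ ∈ Icc (2 * δ) (3 * δ)) (hN : Pos N)
    (hN1 : EY (mu ρ0) σ N = 1)
    (hα : 0 ≤ α) (hαJ : 10 ^ 4 * α ≤ κ * FI (mu ρ0) σ N)
    (hnear : D - α ≤ HE (mu ρ0) σ N - κ * FI (mu ρ0) σ N)
    (hx : 2 * δ * FI (mu ρ0) σ N ≤ x) (hX0 : 0 ≤ X) (hXJ : X ≤ FI (mu ρ0) σ N)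
    (hPred : Pred (mu ρ0) σ N (sN N) x X) :
      ∃ (ρ : ℝ) (M : (Fin n → ℝ) → ℝ), ρ ∈ Icc (2 * δ) (3 * δ) ∧ Pos M ∧ EY (mu ρ0) ρ M = 1 ∧
        D - (10 * α + 8 * δ * X) ≤ HE (mu ρ0) ρ M - κ * FI (mu ρ0) ρ M ∧
        9 / 10 * FI (mu ρ0) σ N ≤ FI (mu ρ0) ρ M ∧ FI (mu ρ0) ρ M ≤ FI (mu ρ0) σ N ∧
        κ * GA (mu ρ0) ρ M + 2 * (κ * BI (mu ρ0) ρ M (sN M) (sN M)) ≤
          1 / 2 * FI (mu ρ0) ρ M + (10 * α + 8 * δ * X) / δ ∧
        Pred (mu ρ0) ρ M (sN M) x (2 * X + 2 * (10 * α + 8 * δ * X) / κ) := by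
  have := hprob
  obtain ⟨⟨hVpos, hV1, -⟩, -, hup⟩ := hPA ρ0 R hρ hprob hcs N (PH (σ - 2 * δ) N) δ κ σ α x X D
    hδ hδκ hDBS hσ hN hN1 hα hαJ hnear hx hX0 hXJ hPred rfl
  set V : (Fin n → ℝ) → ℝ := PH (σ - 2 * δ) N with hV
  set M : ℝ := 10 * α + 8 * δ * X with hM
  have hs0 : 0 < 2 * δ := by linarith only [hδ]
  have hsr : (2 : ℝ) * δ ≤ 3 * δ := by linarith only [hδ]
  have hκ : 0 < κ := by linarith only [hδ, hδκ]
  have hss : 2 * δ ∈ Icc (2 * δ) (3 * δ) := ⟨le_rfl, hsr⟩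
  have hrr : 3 * δ ∈ Icc (2 * δ) (3 * δ) := ⟨hsr, le_rfl⟩
  obtain ⟨cH, cJ, dH, dJ, -⟩ := hU (mu ρ0) R hcs V (2 * δ) (3 * δ) hVpos hs0 hsr
  obtain ⟨-, -, hRb⟩ := hR (mu ρ0) R hcs
  have hsb : ∀ v ∈ Icc (2 * δ) (3 * δ), ∀ i, SB (us (mu ρ0) (2 * δ) v V i) ∧
      SB (mm (mu ρ0) (2 * δ) v V i) ∧ SB (sN (UL (mu ρ0) (2 * δ) v V) i) := by
    intro v hv i
    obtain ⟨hUpos, h1, -⟩ := (hRb (2 * δ) v hs0 hv.1).2 V hVpos
    have hv0 : 0 < v := hs0.trans_le hv.1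
    exact ⟨(h1 i).2.1, (h1 i).2.2.1, (((hRb v v hv0 le_rfl).2 _ hUpos).2.1 i).1⟩
  obtain ⟨v, hv, hvd⟩ := exists_deriv_ge (M := M) (δ := δ) (a := 2 * δ) (b := 3 * δ)
    (α := fun ρ => D - LS.HE (mu ρ0) ρ (UL (mu ρ0) (2 * δ) ρ V)
      + κ * LS.FI (mu ρ0) ρ (UL (mu ρ0) (2 * δ) ρ V)) hδ (by ring)
    ((continuousOn_const.sub cH).add (continuousOn_const.mul cJ))
    (fun v hv => ((dH v hv).const_sub D).add ((dJ v hv).const_mul κ))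
    (by
      have h1 := (hup (3 * δ) hrr).2.2.1
      show 0 ≤ D - LS.HE (mu ρ0) (3 * δ) (UL (mu ρ0) (2 * δ) (3 * δ) V)
        + κ * LS.FI (mu ρ0) (3 * δ) (UL (mu ρ0) (2 * δ) (3 * δ) V)
      linarith only [h1])
    (by
      have h1 := (hup (2 * δ) hss).2.2.2.1
      show D - LS.HE (mu ρ0) (2 * δ) (UL (mu ρ0) (2 * δ) (2 * δ) V)
        + κ * LS.FI (mu ρ0) (2 * δ) (UL (mu ρ0) (2 * δ) (2 * δ) V) ≤ M
      linarith only [h1])
  have hvI : v ∈ Icc (2 * δ) (3 * δ) := ⟨hv.1.le, hv.2.le⟩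
  obtain ⟨hUpos, hUE, hHD, hHM, hFle, hFge, hmm, hPu⟩ := hup v hvI
  have hJ0 : 0 ≤ LS.FI (mu ρ0) σ N := hX0.trans hXJ
  refine ⟨v, UL (mu ρ0) (2 * δ) v V, hvI, hUpos, hUE, hHM, by linarith only [hX0, hXJ, hFge], hFle, ?_, ?_⟩
  · linarith only [hvd]
  · intro l hl hI
    obtain ⟨-, hc⟩ := (hCo (mu ρ0) v _ hUpos).2.2 hUE l hl
    have h1 := (hc (us (mu ρ0) (2 * δ) v V) fun i => (hsb v hvI i).1).2.2
      (mm (mu ρ0) (2 * δ) v V) (fun i => (hsb v hvI i).2.1) 1 (-1)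
    have h3 := (hc (mm (mu ρ0) (2 * δ) v V) fun i => (hsb v hvI i).2.1).2.1
    have h4 := hPu l hl hI
    have e1 : (fun i y => 1 * us (mu ρ0) (2 * δ) v V i y + -1 * mm (mu ρ0) (2 * δ) v V i y)
        = sN (UL (mu ρ0) (2 * δ) v V) := by
      funext i y
      unfold mm
      ring
    rw [e1] at h1
    have e2 : 2 * M / κ = 2 * (M / κ) := by ring
    rw [e2]
    linarith only [hmm, h1, h3, h4]

/-- the accounting -/
theorem accountT {L F κ δ α X β FM X' G B t' : ℝ} (hL : 1 ≤ L) (hF : 0 < F) (hκ : 0 < κ)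
    (hδ : κ / 4000 ≤ δ) (hδ2 : 2000 * δ ≤ κ) (hα0 : 0 ≤ α) (hα : α ≤ 1 / 10 ^ 6 * F)
    (hX0 : 0 ≤ X) (hX : κ * X = 2 * L * F) (hβ : β = 10 * α + 8 * δ * X)
    (hX' : X' = 2 * X + 2 * β / κ)
    (hFM : 9 / 10 * F ≤ FM) (ht' : 0 ≤ t')
    (h1 : κ * G + 2 * (κ * B) ≤ 1 / 2 * FM + β / δ)
    (h2 : κ / 2 * (FM - X') ≤ κ * (κ * G) + β)
    (h3 : t' * FM ≤ B) : κ ^ 2 * t' ≤ 21 * L := by
  have hδ0 : 0 < δ := lt_of_lt_of_le (by positivity) hδ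
  have hβ0 : 0 ≤ β := by rw [hβ]; (clear * - hα0 hδ0 hX0; positivity)
  have h4 : β ≤ 801 / 100000 * (L * F) := by
    have k1 : 8 * δ * X ≤ 8 / 2000 * (κ * X) := by nlinarith only [hδ2, hX0]
    have k2 : F ≤ L * F := by nlinarith only [hL, hF]
    rw [hX] at k1
    rw [hβ]
    nlinarith only [hα, k1, k2]
  have h5 : κ * (β / δ) ≤ 4000 * β := by
    have e : κ * (β / δ) = β * (κ / δ) := by ring
    rw [e]
    have h3 : κ / δ ≤ 4000 := by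
      rw [div_le_iff₀ hδ0]; linarith only [hδ]
    linarith only [mul_nonneg hβ0 (sub_nonneg.2 h3)]
  have h6 : κ * X' = 4 * L * F + 2 * β := by
    rw [hX']
    have : κ * (2 * X + 2 * β / κ) = 2 * (κ * X) + 2 * β := by (clear * - hκ; field_simp)
    rw [this, hX]; ring
  have h7 := mul_le_mul_of_nonneg_left h1 hκ.le
  have h8 : 2 * (κ ^ 2 * B) ≤ 2 * L * F + β + κ * (β / δ) + β := by
    have e1 : κ * (κ * G + 2 * (κ * B)) = κ * (κ * G) + 2 * (κ ^ 2 * B) := by ring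
    have e2 : κ * (1 / 2 * FM + β / δ) = κ / 2 * FM + κ * (β / δ) := by ring
    rw [e1, e2] at h7
    have e3 : κ / 2 * (FM - X') = κ / 2 * FM - κ * X' / 2 := by ring
    rw [e3, h6] at h2
    linarith only [h7, h2]
  have h9 : κ ^ 2 * (t' * (9 / 10 * F)) ≤ κ ^ 2 * B := by
    refine mul_le_mul_of_nonneg_left ?_ (sq_nonneg κ)
    exact (mul_le_mul_of_nonneg_left hFM ht').trans h3
  have hLF : 0 < L * F := by positivity
  have h10 : κ ^ 2 * t' * (9 / 5 * F) ≤ 36 * (L * F) := by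
    have e : 2 * (κ ^ 2 * (t' * (9 / 10 * F))) = κ ^ 2 * t' * (9 / 5 * F) := by ring
    rw [← e]
    linarith only [h8, h9, h5, h4, hLF]
  by_contra hc
  push Not at hc
  have h11 : 21 * L * (9 / 5 * F) < κ ^ 2 * t' * (9 / 5 * F) :=
    mul_lt_mul_of_pos_right hc (by positivity)
  linarith only [h10, h11, hLF]

/-- a near-maximiser forces `κ² t' ≤ 21 L` -/
theorem stepT (hB : StBoot n) (hPA : StPathA n) (hR : StR n) (hCo : StCo n) (hU : StU n)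
    (hRv : StRv n) {Λ L : ℝ} (hΛ : 1 ≤ Λ) (hL : L = 6400000000 * (2 * Λ + 1) + 1)
    {ρ1 : (Fin n → ℝ) → ℝ} {R t : ℝ} (h1 : LCd ρ1) (ht : 0 ≤ t)
    (hpm : IsProbabilityMeasure (mu (gwt t ρ1))) (hsup : CSupp (mu (gwt t ρ1)) R)
    (hexp : ExpM (mu (gwt t ρ1)) 3)
    (N : (Fin n → ℝ) → ℝ) (δ κ σ α D : ℝ) (hK0 : 250 * L ≤ κ) (hδ1 : κ / 4000 ≤ δ)
    (hδ2 : 2000 * δ ≤ κ) (hD : DBS (mu (gwt t ρ1)) (2 * δ) δ κ D)
    (hσ : σ ∈ Icc (2 * δ) (3 * δ)) (hN : Pos N) (hN1 : EY (mu (gwt t ρ1)) σ N = 1)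
    (hα0 : 0 ≤ α) (hα : α ≤ 1 / 10 ^ 6 * FI (mu (gwt t ρ1)) σ N)
    (hdef : D - α ≤ HE (mu (gwt t ρ1)) σ N - κ * FI (mu (gwt t ρ1)) σ N)
    (hHE : HE (mu (gwt t ρ1)) σ N ≤ Λ * κ * FI (mu (gwt t ρ1)) σ N)
    (hlog : log 3 ≤ Λ * κ * FI (mu (gwt t ρ1)) σ N) :
    κ ^ 2 * (t / (1 + t * (3 * δ))) ≤ 21 * L := by
  have hL1 : 1 ≤ L := by rw [hL]; linarith only [hΛ]
  have := hpm
  have hlc : LCd (gwt t ρ1) := lcd_gwt h1 ht
  obtain ⟨ρ0, hρ0⟩ : ∃ ρ0, ρ0 = gwt t ρ1 := ⟨_, rfl⟩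
  rw [← hρ0] at hlc this hpm hsup hexp hD hN1 hα hdef hHE hlog
  set F := FI (mu ρ0) σ N with hF
  have hκ : 0 < κ := lt_of_lt_of_le (by linarith only [hL1]) hK0
  have hδ0 : 0 < δ := lt_of_lt_of_le (by (clear * - hκ; positivity)) hδ1
  have hlog3 : 0 < log 3 := Real.log_pos (by norm_num)
  have hFpos : 0 < F := by
    by_contra hc
    have h1 : Λ * κ * F ≤ 0 := mul_nonpos_of_nonneg_of_nonpos (by (clear * - hΛ hκ; positivity)) (not_lt.1 hc)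
    linarith only [hlog, hlog3, h1]
  have hx : 2 * δ * F ≤ κ * F := mul_le_mul_of_nonneg_right (by linarith only [hκ, hδ2, hδ0]) hFpos.le
  have hα4 : 10 ^ 4 * α ≤ κ * F := by
    have : F ≤ κ * F := by nlinarith only [hFpos, hL1, hK0]
    linarith
  have hscore : ∀ i, SB (sN N i) := fun i => hN.div (hN.sb.pd i)
  obtain ⟨⟨hFI, -⟩, -, hch⟩ := hCo (mu ρ0) σ N hN
  have hch' := hch hN1
  -- the bootstrap
  set A0 := L * F / κ with hA0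
  have hA0pos : 0 ≤ A0 := by rw [hA0]; (clear * - hL1 hFpos hκ; positivity)
  have hforce := step_forcing (H := HE (mu ρ0) σ N) (ℓ := log 3) hΛ hκ hδ1 hFpos hα hHE hlog hL
  have hPred0 : Pred (mu ρ0) σ N (sN N) (κ * F) F := by
    intro l hl _
    have h1 := ((hch' l hl).2 (sN N) hscore).2.1
    rwa [← hFI] at h1
  have hstep : ∀ X, 0 ≤ X → X ≤ F → Pred (mu ρ0) σ N (sN N) (κ * F) X →
      Pred (mu ρ0) σ N (sN N) (κ * F) (A0 + X / 2) := by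
    intro X hX0 hXF hPX l hl hI
    have h1 := hB ρ0 R 3 hlc hpm hsup (by norm_num) hexp N δ κ σ α (κ * F) X D hδ0 hδ2 hD hσ hN
      hN1 hα0 hα4 hdef hx hX0 hXF hPX l hl hI
    linarith only [hforce, h1]
  have hclose : Pred (mu ρ0) σ N (sN N) (κ * F) (2 * A0) := by
    have key := contraction_close
      (ι := {l : (Fin n → ℝ) → (Fin n → ℝ) → ℝ // Ch l ∧ Inf (mu ρ0) σ N l ≤ κ * F})
      (P := fun l => Co (mu ρ0) σ N (sN N) l.1) (A := A0) (N0 := F)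
      (fun l => hPred0 l.1 l.2.1 l.2.2) hFpos.le
      (fun X hX0 hX l => by
        rcases le_total X F with hXF | hXF
        · exact hstep X hX0 hXF (fun l' hl' hI' => hX ⟨l', hl', hI'⟩) l.1 l.2.1 l.2.2
        · have h1 := hstep F hFpos.le le_rfl hPred0 l.1 l.2.1 l.2.2
          linarith only [hXF, h1])
      hA0pos
    intro l hl hI
    exact key ⟨l, hl, hI⟩
  have h2A : 2 * A0 ≤ F := by
    have e : 2 * A0 = 2 * L * F / κ := by rw [hA0]; ring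
    rw [e, div_le_iff₀ hκ]
    nlinarith only [hFpos, hK0, hL1]
  -- the path
  obtain ⟨ρ, M, hρ, hM, hM1, m1, m2, m3, m4, m5⟩ := pathB n hPA hR hCo hU ρ0 R hlc hpm hsup N δ κ
    σ α (κ * F) (2 * A0) D hδ0 hδ2 hD hσ hN hN1 hα0 hα4 hdef hx
    (by (clear * - hA0pos; positivity)) h2A hclose
  have hρpos : 0 < ρ := by linarith only [hρ.1, hδ0]
  have hρ' : ρ ∈ Icc (2 * δ) (2 * δ + δ) := ⟨hρ.1, by linarith only [hρ.2]⟩
  have hsb : ∀ i, SB (sN M i) := fun i => hM.div (hM.sb.pd i)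
  obtain ⟨⟨eFI, eGA⟩, -, hch2⟩ := hCo (mu ρ0) ρ M hM
  -- the lower bound of the second order term
  obtain ⟨hCh, hup, hlow, hrev⟩ := hRv (mu ρ0) ρ κ κ D M (sN M) hρpos.le hκ hM hM1 hsb
  have hrev := hrev (hD ρ hρ')
  rw [← eFI] at hup hlow
  rw [← eGA] at hrev
  have hFM0 : 0 ≤ FI (mu ρ0) ρ M := by linarith only [m2, hFpos]
  have hIx : Inf (mu ρ0) ρ M (RL κ (sN M)) ≤ κ * F := by
    refine hup.trans ?_
    have a := mul_le_mul_of_nonneg_left m3 hκ.le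
    have b : κ / 2 * FI (mu ρ0) ρ M ≤ κ * FI (mu ρ0) ρ M := by nlinarith only [hκ, hFM0]
    linarith only [a, b]
  have hCo1 := m5 _ hCh hIx
  -- curvature
  have hBI := BI_ge (t := t) (ρ1 := ρ1) (R := R) h1 ht (by rw [← hρ0]; exact hpm)
    (by rw [← hρ0]; exact hsup) hρpos hM hsb
  rw [← hρ0, ← eFI] at hBI
  have htt : t / (1 + t * (3 * δ)) ≤ t / (1 + t * ρ) := by
    apply div_le_div_of_nonneg_left ht
    · have : 0 ≤ t * ρ := mul_nonneg ht hρpos.le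
      linarith only [this]
    · have := mul_le_mul_of_nonneg_left hρ.2 ht
      linarith only [this]
  have ht'0 : 0 ≤ t / (1 + t * (3 * δ)) := by
    have : 0 ≤ t * (3 * δ) := mul_nonneg ht (by linarith only [hδ0])
    positivity
  refine accountT (β := 10 * α + 8 * δ * (2 * A0)) (X := 2 * A0)
    (X' := 2 * (2 * A0) + 2 * (10 * α + 8 * δ * (2 * A0)) / κ) hL1 hFpos hκ hδ1 hδ2 hα0 hα
    (by (clear * - hA0pos; positivity)) ?_ rfl rfl m2 ht'0 m4 ?_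
    ((mul_le_mul_of_nonneg_right htt hFM0).trans hBI)
  · rw [hA0]
    (clear * - hκ hFpos hL1; field_simp)
  · have a : κ / 2 * (FI (mu ρ0) ρ M - (2 * (2 * A0) + 2 * (10 * α + 8 * δ * (2 * A0)) / κ)) ≤
        Inf (mu ρ0) ρ M (RL κ (sN M)) := by
      refine le_trans ?_ hlow
      exact mul_le_mul_of_nonneg_left (by linarith only [hCo1]) (by linarith only [hκ])
    have e : κ * (FI (mu ρ0) ρ M + κ * GA (mu ρ0) ρ M) =
        κ * FI (mu ρ0) ρ M + κ * (κ * GA (mu ρ0) ρ M) := by ring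
    rw [e] at hrev
    linarith only [a, hrev, m1]

end Vale.Agent.P245.H430
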